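import Vale.Agent.P070.Final

/-!
# P070G: graph C*-algebras (definitions)
-/

open scoped ComplexOrder InnerProductSpace

namespace Vale.Agent.P070G

open Vale.Agent.P070

universe u v

/-- A Toeplitz-Cuntz-Krieger family of the directed graph with vertex set `V`, edge set `E`, source
and range maps `src`, `rng` (of any cardinality) in the C*-algebra `A`. -/
structure TCK (V E : Type v) (src rng : E → V) (A : Type u) [NonUnitalCStarAlgebra A] where
  p : V → A
  s : E → A
  p_star : ∀ v, star (p v) = p v
  p_idem : ∀ v, p v * p v = p v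
  p_orth : ∀ v w, v ≠ w → p v * p w = 0
  s_star_s : ∀ e, star (s e) * s e = p (rng e)
  s_orth : ∀ e f, e ≠ f → star (s e) * s f = 0
  src_s : ∀ e, p (src e) * s e = s e

variable {V E : Type v} {src rng : E → V} {A : Type u} [NonUnitalCStarAlgebra A]

/-- `s_{e₁} ⋯ s_{e_k} p_v` (it is `0` if `e₁ ⋯ e_k` is not a path ending at `v`) -/
def pe (F : TCK V E src rng A) : List E → V → A
  | [], v => F.p v
  | e :: l, v => F.s e * pe F l v

/-- the family generates `A` as a C*-algebra -/
def Generates (F : TCK V E src rng A) : Prop :=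
  ∀ B : NonUnitalStarSubalgebra ℂ A, IsClosed (B : Set A) → (∀ v, F.p v ∈ B) →
    (∀ e, F.s e ∈ B) → B = ⊤

/-- the projections `s_μ s_μ*` -/
def qset (F : TCK V E src rng A) : Set A :=
  {q | ∃ l v, q = pe F l v * star (pe F l v)}

/-- the diagonal: the closed star subalgebra generated by the projections `s_μ s_μ*` -/
noncomputable def diag (F : TCK V E src rng A) : NonUnitalStarSubalgebra ℂ A :=
  (NonUnitalStarAlgebra.adjoin ℂ (qset F)).topologicalClosure

/-- the elements `s_μ s_ν*` -/
def nset (F : TCK V E src rng A) : Set A :=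
  {n | ∃ l l' v, n = pe F l v * star (pe F l' v)}

end Vale.Agent.P070G
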