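import Vale.Agent.P070G.PathC

/-!
# P070G, module DIAGA: products of the projections `q = z z*`

`z z* w w* = z (z* w) w*` and `star_pe_mul_pe`: if `z* w = u` with `z u = w` then `q q' = w w* = q'`;
if `z* w = u*` with `w u = z` then `q q' = z u* w* = z (w u)* = z z* = q`; take stars for `q' q`.
-/

open scoped ComplexOrder InnerProductSpace

namespace Vale.Agent.P070G

open Vale.Agent.P070

universe u v

variable {V E : Type v} {src rng : E → V} {A : Type u} [NonUnitalCStarAlgebra A]

/-- SPAN2 -/
theorem q_mul_q (F : TCK V E src rng A) {q q' : A} (hq : q ∈ qset F) (hq' : q' ∈ qset F) :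
    (q * q' = 0 ∧ q' * q = 0) ∨ (q * q' = q ∧ q' * q = q) ∨ (q * q' = q' ∧ q' * q = q') := by
  obtain ⟨l, v, rfl⟩ := hq
  obtain ⟨l', v', rfl⟩ := hq'
  generalize hz : pe F l v = z
  generalize hw : pe F l' v' = w
  have h := star_pe_mul_pe F l l' v v'
  rw [hz, hw] at h
  have hst : w * star w * (z * star z) = star (z * star z * (w * star w)) := by
    simp only [star_mul, star_star]
  have e : z * star z * (w * star w) = z * (star z * w) * star w := by
    simp only [mul_assoc]
  rw [hst, e]
  rcases h with h | ⟨m, h1, h2⟩ | ⟨m, h1, h2⟩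
  · left
    rw [h, mul_zero, zero_mul, star_zero]
    exact ⟨rfl, rfl⟩
  · right; right
    rw [h1, h2]
    simp only [star_mul, star_star, and_self]
  · right; left
    have e2 : z * star (pe F m v) * star w = z * star z := by
      rw [mul_assoc, ← star_mul, h2]
    rw [h1, e2]
    simp only [star_mul, star_star, and_self]

end Vale.Agent.P070G
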