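import Vale.Agent.P070G.Diag1

/-!
# P070G, module DIAGB: the algebra generated by `qset` is its span

The span of `qset` is closed under multiplication (`q_mul_q`) and star.
-/

open scoped ComplexOrder InnerProductSpace

namespace Vale.Agent.P070G

open Vale.Agent.P070

universe u v

variable {V E : Type v} {src rng : E → V} {A : Type u} [NonUnitalCStarAlgebra A]

theorem DIAGB_mul (F : TCK V E src rng A) {a b : A} (ha : a ∈ Submodule.span ℂ (qset F))
    (hb : b ∈ Submodule.span ℂ (qset F)) : a * b ∈ Submodule.span ℂ (qset F) := by
  induction ha using Submodule.span_induction with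
  | mem x hx =>
    induction hb using Submodule.span_induction with
    | mem y hy =>
      rcases q_mul_q F hx hy with h | h | h
      · rw [h.1]
        exact Submodule.zero_mem _
      · rw [h.1]
        exact Submodule.subset_span hx
      · rw [h.1]
        exact Submodule.subset_span hy
    | zero =>
      rw [mul_zero]
      exact Submodule.zero_mem _
    | add y z _ _ hy hz =>
      rw [mul_add]
      exact Submodule.add_mem _ hy hz
    | smul c y _ hy =>
      rw [mul_smul_comm]
      exact Submodule.smul_mem _ c hy
  | zero =>
    rw [zero_mul]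
    exact Submodule.zero_mem _
  | add y z _ _ hy hz =>
    rw [add_mul]
    exact Submodule.add_mem _ hy hz
  | smul c y _ hy =>
    rw [smul_mul_assoc]
    exact Submodule.smul_mem _ c hy

theorem DIAGB_star (F : TCK V E src rng A) {a : A} (ha : a ∈ Submodule.span ℂ (qset F)) :
    star a ∈ Submodule.span ℂ (qset F) := by
  induction ha using Submodule.span_induction with
  | mem x hx =>
    have h : star x = x := by
      obtain ⟨l, v, rfl⟩ := hx
      rw [star_mul, star_star]
    rw [h]
    exact Submodule.subset_span hx
  | zero =>
    rw [star_zero]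
    exact Submodule.zero_mem _
  | add y z _ _ hy hz =>
    rw [star_add]
    exact Submodule.add_mem _ hy hz
  | smul c y _ hy =>
    rw [star_smul]
    exact Submodule.smul_mem _ _ hy

/-- the span of `qset` as a star subalgebra -/
def DIAGB_alg (F : TCK V E src rng A) : NonUnitalStarSubalgebra ℂ A where
  carrier := Submodule.span ℂ (qset F)
  add_mem' := fun ha hb => Submodule.add_mem _ ha hb
  zero_mem' := Submodule.zero_mem _
  mul_mem' := fun ha hb => DIAGB_mul F ha hb
  smul_mem' := fun c _ ha => Submodule.smul_mem _ c ha
  star_mem' := fun ha => DIAGB_star F ha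

/-- SPAN2 -/
theorem adjoin_eq_span (F : TCK V E src rng A) :
    ((NonUnitalStarAlgebra.adjoin ℂ (qset F) : NonUnitalStarSubalgebra ℂ A) : Set A) =
      Submodule.span ℂ (qset F) := by
  apply Set.Subset.antisymm
  · have h : NonUnitalStarAlgebra.adjoin ℂ (qset F) ≤ DIAGB_alg F :=
      NonUnitalStarAlgebra.adjoin_le fun x hx => Submodule.subset_span hx
    exact h
  · intro x hx
    have h : Submodule.span ℂ (qset F) ≤
        (NonUnitalStarAlgebra.adjoin ℂ (qset F)).toNonUnitalSubalgebra.toSubmodule :=
      Submodule.span_le.2 (NonUnitalStarAlgebra.subset_adjoin ℂ (qset F))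
    exact h hx

end Vale.Agent.P070G
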