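import Vale.Agent.P070G.Diag1

/-!
# P070G, module DIAGC: the diagonal is closed and commutative

The elements of `qset` commute (`q_mul_q`) and are self-adjoint; `adjoin` of commuting self-adjoint
elements is commutative (`NonUnitalStarAlgebra.adjoinNonUnitalCommRingOfComm` or
`adjoin_induction`), and so is its closure.
-/

open scoped ComplexOrder InnerProductSpace

namespace Vale.Agent.P070G

open Vale.Agent.P070

universe u v

variable {V E : Type v} {src rng : E → V} {A : Type u} [NonUnitalCStarAlgebra A]

/-- DIAG -/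
theorem diag_closed (F : TCK V E src rng A) : IsClosed (diag F : Set A) := by
  unfold diag
  exact NonUnitalStarSubalgebra.isClosed_topologicalClosure _

theorem DIAGC_star (F : TCK V E src rng A) {q : A} (hq : q ∈ qset F) : star q = q := by
  obtain ⟨l, v, rfl⟩ := hq
  rw [star_mul, star_star]

theorem DIAGC_q (F : TCK V E src rng A) {q : A} (hq : q ∈ qset F) :
    ∀ x ∈ NonUnitalStarAlgebra.adjoin ℂ (qset F), q * x = x * q := by
  intro x hx
  induction hx using NonUnitalStarAlgebra.adjoin_induction with
  | mem x hx =>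
    rcases q_mul_q F hq hx with h | h | h
    · rw [h.1, h.2]
    · rw [h.1, h.2]
    · rw [h.1, h.2]
  | add x y _ _ h1 h2 => rw [mul_add, add_mul, h1, h2]
  | zero => rw [mul_zero, zero_mul]
  | mul x y _ _ h1 h2 => rw [← mul_assoc, h1, mul_assoc, h2, mul_assoc]
  | smul r x _ h1 => rw [mul_smul_comm, smul_mul_assoc, h1]
  | star x _ h1 =>
    have h2 : star (q * x) = star (x * q) := by rw [h1]
    rw [star_mul, star_mul, DIAGC_star F hq] at h2
    exact h2.symm

theorem DIAGC_comm (F : TCK V E src rng A) :
    ∀ x ∈ NonUnitalStarAlgebra.adjoin ℂ (qset F),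
      ∀ y ∈ NonUnitalStarAlgebra.adjoin ℂ (qset F), x * y = y * x := by
  intro x hx
  induction hx using NonUnitalStarAlgebra.adjoin_induction with
  | mem x hx => exact DIAGC_q F hx
  | add x x' _ _ h1 h2 =>
    intro y hy
    rw [mul_add, add_mul, h1 y hy, h2 y hy]
  | zero =>
    intro y _
    rw [mul_zero, zero_mul]
  | mul x x' _ _ h1 h2 =>
    intro y hy
    rw [mul_assoc, h2 y hy, ← mul_assoc, h1 y hy, mul_assoc]
  | smul r x _ h1 =>
    intro y hy
    rw [mul_smul_comm, smul_mul_assoc, h1 y hy]
  | star x _ h1 =>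
    intro y hy
    have h3 := h1 (star y) (star_mem hy)
    have h2 : star (x * star y) = star (star y * x) := by rw [h3]
    rw [star_mul, star_mul, star_star] at h2
    exact h2.symm

/-- DIAG -/
theorem diag_comm (F : TCK V E src rng A) : ∀ x ∈ diag F, ∀ y ∈ diag F, x * y = y * x := by
  intro x hx y hy
  have hcl : ((diag F : NonUnitalStarSubalgebra ℂ A) : Set A) =
      closure ((NonUnitalStarAlgebra.adjoin ℂ (qset F) : NonUnitalStarSubalgebra ℂ A) : Set A) := by
    unfold diag
    rfl
  have h1 : ∀ y ∈ NonUnitalStarAlgebra.adjoin ℂ (qset F),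
      ∀ x ∈ closure ((NonUnitalStarAlgebra.adjoin ℂ (qset F) : NonUnitalStarSubalgebra ℂ A) : Set A),
        x * y = y * x := by
    intro y hy
    have hc : IsClosed {x : A | x * y = y * x} :=
      isClosed_eq (continuous_id.mul continuous_const) (continuous_const.mul continuous_id)
    exact hc.closure_subset_iff.mpr (fun x hx => DIAGC_comm F x hx y hy)
  have h2 : ∀ x ∈ closure ((NonUnitalStarAlgebra.adjoin ℂ (qset F) :
      NonUnitalStarSubalgebra ℂ A) : Set A),
      ∀ y ∈ closure ((NonUnitalStarAlgebra.adjoin ℂ (qset F) : NonUnitalStarSubalgebra ℂ A) : Set A),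
        x * y = y * x := by
    intro x hx
    have hc : IsClosed {y : A | x * y = y * x} :=
      isClosed_eq (continuous_const.mul continuous_id) (continuous_id.mul continuous_const)
    exact hc.closure_subset_iff.mpr (fun y hy => h1 y hy x hx)
  rw [← SetLike.mem_coe, hcl] at hx hy
  exact h2 x hx y hy

/-- DIAG -/
theorem q_mem_diag (F : TCK V E src rng A) (l : List E) (v : V) :
    pe F l v * star (pe F l v) ∈ diag F := by
  unfold diag
  exact NonUnitalStarSubalgebra.le_topologicalClosure _
    (NonUnitalStarAlgebra.subset_adjoin ℂ _ ⟨l, v, rfl⟩)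

end Vale.Agent.P070G
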