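import Vale.Agent.P070G.PathA

/-!
# P070G, module PATHB: `s_μ s_ν`

Induction on `l` (`p_pe` for the empty path).
-/

open scoped ComplexOrder InnerProductSpace

namespace Vale.Agent.P070G

open Vale.Agent.P070

universe u v

variable {V E : Type v} {src rng : E → V} {A : Type u} [NonUnitalCStarAlgebra A]

/-- `s_μ s_ν` is `0` or `s_{μν}` -/
theorem pe_mul_pe (F : TCK V E src rng A) (l l' : List E) (v w : V) :
    pe F l v * pe F l' w = 0 ∨ pe F l v * pe F l' w = pe F (l ++ l') w := by
  induction l with
  | nil => exact p_pe F v l' w
  | cons e l ih =>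
    have h1 : pe F (e :: l) v * pe F l' w = F.s e * (pe F l v * pe F l' w) := by
      change F.s e * pe F l v * pe F l' w = _
      rw [mul_assoc]
    rcases ih with h | h
    · left
      rw [h1, h, mul_zero]
    · right
      rw [h1, h]
      rfl

end Vale.Agent.P070G
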