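import Vale.Agent.P070G.Diag2
import Vale.Agent.P070G.Diag3
import Vale.Agent.P070G.PathB

/-!
# P070G, module NORM: the elements `s_μ s_ν*` normalise the diagonal

For `n = x y*`, `x = pe l v`, `y = pe l' v`: `x* x` is `p v` (or `x = 0`), so `n* n = y p_v y* = y y*` (`pe_p`), and
`n n* = x x*`.  For `q = z z* ∈ qset`: `n* q n = (n* z)(n* z)*`, `n* z = y (x* z)` and `x* z ∈ {0, u, u*}`
with `u = pe m _` (`star_pe_mul_pe`).  If `x* z = u` then `y u` is `0` or a path element (`pe_mul_pe`) and
`n* q n = (y u)(y u)* ∈ qset ∪ {0}`; if `x* z = u*` (`u = pe m v`, `z u = x`) then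
`n* q n = y u* u y*`, and `u* u = p v` or `u = 0`, so it is `y y*` or `0`.  Then linear combinations
(`adjoin_eq_span`) and limits (`diag` is the closure).  `star n = y x*` is of the same form, which
gives the conditions with `n` and `n*` exchanged.
-/

open scoped ComplexOrder InnerProductSpace

namespace Vale.Agent.P070G

open Vale.Agent.P070

universe u v

variable {V E : Type v} {src rng : E → V} {A : Type u} [NonUnitalCStarAlgebra A]

theorem norm_xx (F : TCK V E src rng A) (l l' : List E) (v : V) :
    pe F l' v * (star (pe F l v) * pe F l v) * star (pe F l' v) ∈ diag F := by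
  rcases star_pe_pe F l v with h | h
  · rw [h, mul_zero, mul_zero, zero_mul]
    exact zero_mem _
  · rw [h, pe_p]
    exact q_mem_diag F l' v

theorem norm_q (F : TCK V E src rng A) (l l' : List E) (v : V) {q : A} (hq : q ∈ qset F) :
    (pe F l' v * star (pe F l v)) * q * (pe F l v * star (pe F l' v)) ∈ diag F := by
  obtain ⟨m, w, rfl⟩ := hq
  have e : (pe F l' v * star (pe F l v)) * (pe F m w * star (pe F m w)) *
      (pe F l v * star (pe F l' v)) =
      pe F l' v * (star (pe F l v) * pe F m w) * star (star (pe F l v) * pe F m w) *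
        star (pe F l' v) := by
    rw [star_mul, star_star]
    simp only [mul_assoc]
  rw [e]
  rcases star_pe_mul_pe F l m v w with h | ⟨k, h, _⟩ | ⟨k, h, _⟩
  · rw [h, mul_zero, zero_mul, zero_mul]
    exact zero_mem _
  · rw [h]
    have e2 : pe F l' v * pe F k w * star (pe F k w) * star (pe F l' v) =
        (pe F l' v * pe F k w) * star (pe F l' v * pe F k w) := by
      rw [star_mul, mul_assoc (pe F l' v * pe F k w)]
    rw [e2]
    rcases pe_mul_pe F l' k v w with h2 | h2
    · rw [h2, zero_mul]
      exact zero_mem _
    · rw [h2]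
      exact q_mem_diag F _ w
  · rw [h, star_star]
    have e2 : pe F l' v * star (pe F k v) * pe F k v * star (pe F l' v) =
        pe F l' v * (star (pe F k v) * pe F k v) * star (pe F l' v) := by
      simp only [mul_assoc]
    rw [e2]
    exact norm_xx F k l' v

theorem norm_d (F : TCK V E src rng A) (l l' : List E) (v : V) {d : A} (hd : d ∈ diag F) :
    (pe F l' v * star (pe F l v)) * d * (pe F l v * star (pe F l' v)) ∈ diag F := by
  have hcl : IsClosed {d : A | (pe F l' v * star (pe F l v)) * d *
      (pe F l v * star (pe F l' v)) ∈ diag F} :=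
    (diag_closed F).preimage ((continuous_const.mul continuous_id).mul continuous_const)
  have hsub : ((NonUnitalStarAlgebra.adjoin ℂ (qset F) : NonUnitalStarSubalgebra ℂ A) : Set A) ⊆
      {d : A | (pe F l' v * star (pe F l v)) * d * (pe F l v * star (pe F l' v)) ∈ diag F} := by
    rw [adjoin_eq_span]
    intro x hx
    refine Submodule.span_induction (p := fun x _ => (pe F l' v * star (pe F l v)) * x *
      (pe F l v * star (pe F l' v)) ∈ diag F) ?_ ?_ ?_ ?_ hx
    · intro q hq
      exact norm_q F l l' v hq
    · rw [mul_zero, zero_mul]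
      exact zero_mem _
    · intro a b _ _ ha hb
      rw [mul_add, add_mul]
      exact add_mem ha hb
    · intro c a _ ha
      rw [mul_smul_comm, smul_mul_assoc]
      exact SMulMemClass.smul_mem c ha
  have h := closure_minimal hsub hcl
  exact h hd

/-- NORM -/
theorem nset_normalizer (F : TCK V E src rng A) : nset F ⊆ normalizer (diag F) := by
  rintro n ⟨l, l', v, rfl⟩
  have e : star (pe F l v * star (pe F l' v)) = pe F l' v * star (pe F l v) := by
    rw [star_mul, star_star]
  refine ⟨?_, ?_, fun d hd => ?_, fun d hd => ?_⟩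
  · rw [e]
    have := norm_xx F l l' v
    rw [show pe F l' v * star (pe F l v) * (pe F l v * star (pe F l' v)) =
      pe F l' v * (star (pe F l v) * pe F l v) * star (pe F l' v) by simp only [mul_assoc]]
    exact this
  · rw [e]
    have := norm_xx F l' l v
    rw [show pe F l v * star (pe F l' v) * (pe F l' v * star (pe F l v)) =
      pe F l v * (star (pe F l' v) * pe F l' v) * star (pe F l v) by simp only [mul_assoc]]
    exact this
  · rw [e]
    exact norm_d F l l' v hd
  · rw [e]
    exact norm_d F l' l v hd

end Vale.Agent.P070G
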