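import Vale.Agent.P070G.PathA

/-!
# P070G, module PATHC: `s_μ* s_ν`

Induction on `l` and case distinction on `l'`; `star (s e) * s e' = 0` or `e = e'` and
`star (s e) * s e = p (rng e)`, then `p_pe`.  (If a product is `0` use the first alternative.)
-/

open scoped ComplexOrder InnerProductSpace

namespace Vale.Agent.P070G

open Vale.Agent.P070

universe u v

variable {V E : Type v} {src rng : E → V} {A : Type u} [NonUnitalCStarAlgebra A]

/-- `s_μ* s_ν` is `0`, or `ν = μ λ` and it is `s_λ`, or `μ = ν λ` and it is `s_λ*`.
Induction on `l`, `l'`; the equations `s_μ s_λ = s_ν` are included. -/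
theorem star_pe_mul_pe (F : TCK V E src rng A) (l l' : List E) (v w : V) :
    star (pe F l v) * pe F l' w = 0 ∨
    (∃ m, star (pe F l v) * pe F l' w = pe F m w ∧ pe F l v * pe F m w = pe F l' w) ∨
    (∃ m, star (pe F l v) * pe F l' w = star (pe F m v) ∧ pe F l' w * pe F m v = pe F l v) := by
  induction l generalizing l' with
  | nil =>
    have h0 : pe F [] v = F.p v := rfl
    rw [h0, F.p_star]
    rcases p_pe F v l' w with h | h
    · exact Or.inl h
    · exact Or.inr (Or.inl ⟨l', h, h⟩)
  | cons e l0 ih =>
    cases l' with
    | nil =>
      have h0 : pe F [] w = F.p w := rfl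
      have h1 : star (pe F (e :: l0) v) * F.p w = star (F.p w * pe F (e :: l0) v) := by
        rw [star_mul, F.p_star]
      rw [h0, h1]
      rcases p_pe F w (e :: l0) v with h | h
      · left
        rw [h, star_zero]
      · right
        right
        refine ⟨e :: l0, ?_, h⟩
        rw [h]
    | cons e' l0' =>
      have h1 : pe F (e :: l0) v = F.s e * pe F l0 v := rfl
      have h2 : pe F (e' :: l0') w = F.s e' * pe F l0' w := rfl
      have h3 : star (pe F (e :: l0) v) * pe F (e' :: l0') w =
          star (pe F l0 v) * ((star (F.s e) * F.s e') * pe F l0' w) := by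
        rw [h1, h2, star_mul]
        simp only [mul_assoc]
      by_cases he : e = e'
      · subst he
        rw [F.s_star_s] at h3
        rcases p_pe F (rng e) l0' w with h | h
        · left
          rw [h3, h, mul_zero]
        · rw [h] at h3
          rw [h3]
          rcases ih l0' with h4 | ⟨m, h4, h5⟩ | ⟨m, h4, h5⟩
          · exact Or.inl h4
          · right
            left
            refine ⟨m, h4, ?_⟩
            rw [h1, h2, mul_assoc, h5]
          · right
            right
            refine ⟨m, h4, ?_⟩
            rw [h1, h2, mul_assoc, h5]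
      · left
        rw [h3, F.s_orth e e' he, zero_mul, mul_zero]

end Vale.Agent.P070G
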