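import Vale.Agent.P070G.PathB
import Vale.Agent.P070G.PathC

/-!
# P070G, module TOT: the elements `s_μ s_ν*` are total

`nset ∪ {0}` is closed under star and under products: `(x y*)(z w*) = x (y* z) w*`, `y* z ∈ {0, u, u*}`
(`star_pe_mul_pe`), `x u` is `0` or a path element (`pe_mul_pe`), `x u* w* = x (w u)*`; note that
`pe l v * star (pe l' v') = 0` for `v ≠ v'` (`pe_p`, `p_orth`), so elements `pe l v * star (pe l' v')` are in
`nset ∪ {0}`.  It contains `p v = p v (p v)*` and `s e = s e (p (rng e))*` (`s_rng`).  So its span is a
star subalgebra `B₀` (or: `adjoin ℂ (nset F) = span`, by induction), its topological closure is a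
closed star subalgebra containing all `p v`, `s e`, hence `⊤` by `Generates`.
-/

open scoped ComplexOrder InnerProductSpace

namespace Vale.Agent.P070G

open Vale.Agent.P070

universe u v

variable {V E : Type v} {src rng : E → V} {A : Type u} [NonUnitalCStarAlgebra A]

theorem TOT_mem (F : TCK V E src rng A) (l l' : List E) (v : V) :
    pe F l v * star (pe F l' v) ∈ Submodule.span ℂ (nset F) :=
  Submodule.subset_span ⟨l, l', v, rfl⟩

theorem TOT_mul (F : TCK V E src rng A) {x y : A} (hx : x ∈ nset F) (hy : y ∈ nset F) :
    x * y ∈ Submodule.span ℂ (nset F) := by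
  obtain ⟨l, l', v, rfl⟩ := hx
  obtain ⟨k, k', w, rfl⟩ := hy
  have e : pe F l v * star (pe F l' v) * (pe F k w * star (pe F k' w)) =
      pe F l v * (star (pe F l' v) * pe F k w) * star (pe F k' w) := by
    simp only [mul_assoc]
  rw [e]
  rcases star_pe_mul_pe F l' k v w with h | ⟨m, h, -⟩ | ⟨m, h, -⟩
  · rw [h, mul_zero, zero_mul]
    exact Submodule.zero_mem _
  · rw [h]
    rcases pe_mul_pe F l m v w with h2 | h2
    · rw [h2, zero_mul]
      exact Submodule.zero_mem _
    · rw [h2]
      exact TOT_mem F _ _ _
  · rw [h, mul_assoc, ← star_mul]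
    rcases pe_mul_pe F k' m w v with h2 | h2
    · rw [h2, star_zero, mul_zero]
      exact Submodule.zero_mem _
    · rw [h2]
      exact TOT_mem F _ _ _

theorem TOT_star (F : TCK V E src rng A) {x : A} (hx : x ∈ nset F) :
    star x ∈ Submodule.span ℂ (nset F) := by
  obtain ⟨l, l', v, rfl⟩ := hx
  rw [star_mul, star_star]
  exact TOT_mem F _ _ _

/-- the span of the elements `s_μ s_ν*` as a star subalgebra -/
noncomputable def TOT_alg (F : TCK V E src rng A) : NonUnitalStarSubalgebra ℂ A where
  carrier := Submodule.span ℂ (nset F)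
  add_mem' := fun ha hb => Submodule.add_mem _ ha hb
  zero_mem' := Submodule.zero_mem _
  smul_mem' := fun c _ hx => Submodule.smul_mem _ c hx
  mul_mem' := by
    intro a b ha hb
    have h1 : ∀ x ∈ nset F, ∀ y ∈ Submodule.span ℂ (nset F), x * y ∈ Submodule.span ℂ (nset F) := by
      intro x hx y hy
      refine Submodule.span_induction (p := fun y _ => x * y ∈ Submodule.span ℂ (nset F))
        ?_ ?_ ?_ ?_ hy
      · intro y hy
        exact TOT_mul F hx hy
      · rw [mul_zero]
        exact Submodule.zero_mem _
      · intro y z _ _ h2 h3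
        rw [mul_add]
        exact Submodule.add_mem _ h2 h3
      · intro c y _ h2
        rw [mul_smul_comm]
        exact Submodule.smul_mem _ c h2
    show a * b ∈ Submodule.span ℂ (nset F)
    refine Submodule.span_induction (p := fun a _ => a * b ∈ Submodule.span ℂ (nset F))
      ?_ ?_ ?_ ?_ ha
    · intro x hx
      exact h1 x hx b hb
    · rw [zero_mul]
      exact Submodule.zero_mem _
    · intro y z _ _ h2 h3
      rw [add_mul]
      exact Submodule.add_mem _ h2 h3
    · intro c y _ h2
      rw [smul_mul_assoc]
      exact Submodule.smul_mem _ c h2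
  star_mem' := by
    intro a ha
    show star a ∈ Submodule.span ℂ (nset F)
    refine Submodule.span_induction (p := fun a _ => star a ∈ Submodule.span ℂ (nset F))
      ?_ ?_ ?_ ?_ ha
    · intro x hx
      exact TOT_star F hx
    · rw [star_zero]
      exact Submodule.zero_mem _
    · intro y z _ _ h2 h3
      rw [star_add]
      exact Submodule.add_mem _ h2 h3
    · intro c y _ h2
      rw [star_smul]
      exact Submodule.smul_mem _ _ h2

/-- TOT -/
theorem nset_total (F : TCK V E src rng A) (hF : Generates F) :
    Dense (Submodule.span ℂ (nset F) : Set A) := by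
  have hp : ∀ v, F.p v ∈ TOT_alg F := by
    intro v
    have h := TOT_mem F [] [] v
    have e : pe F [] v * star (pe F [] v) = F.p v := by
      show F.p v * star (F.p v) = F.p v
      rw [F.p_star, F.p_idem]
    rw [e] at h
    exact h
  have hs : ∀ e, F.s e ∈ TOT_alg F := by
    intro e
    have h := TOT_mem F [e] [] (rng e)
    have e1 : pe F [e] (rng e) * star (pe F [] (rng e)) = F.s e := by
      show F.s e * F.p (rng e) * star (F.p (rng e)) = F.s e
      rw [F.p_star, mul_assoc, F.p_idem, s_rng]
    rw [e1] at h
    exact h
  have htop := hF (TOT_alg F).topologicalClosure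
    (NonUnitalStarSubalgebra.isClosed_topologicalClosure _)
    (fun v => NonUnitalStarSubalgebra.le_topologicalClosure _ (hp v))
    (fun e => NonUnitalStarSubalgebra.le_topologicalClosure _ (hs e))
  intro a
  have ha : a ∈ (TOT_alg F).topologicalClosure := by
    rw [htop]
    trivial
  exact ha

end Vale.Agent.P070G
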