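import Vale.Agent.P070G.Isot
import Vale.Agent.P070G.Norm
import Vale.Agent.P070G.Tot

/-!
# P070G: Naimark's problem for graph C*-algebras, assembly (helper75)
-/

open scoped ComplexOrder InnerProductSpace

namespace Vale.Agent.P070G

open Vale.Agent.P070

universe u v

variable {V E : Type v} {src rng : E → V} {A : Type u} [NonUnitalCStarAlgebra A]
variable {H : Type u} [NormedAddCommGroup H] [InnerProductSpace ℂ H] [CompleteSpace H]

theorem graph_compact (hN : PropertyN A) {π : A →⋆ₙₐ[ℂ] (H →L[ℂ] H)} (hπ : IsIrred π)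
    (F : TCK V E src rng A) (hF : Generates F) :
    Function.Injective π ∧ Set.range π = {T : H →L[ℂ] H | IsCompactOperator T} := by
  have hD : ∃ x ∈ diag F, x ≠ 0 := by
    by_contra hcon
    push Not at hcon
    have hp : ∀ v, F.p v = 0 := by
      intro v
      have h := hcon _ (q_mem_diag F [] v)
      rw [pe, F.p_star, F.p_idem] at h
      exact h
    have hs : ∀ e, F.s e = 0 := fun e => by rw [← F.src_s e, hp, zero_mul]
    have hbot : (⊥ : NonUnitalStarSubalgebra ℂ A) = ⊤ := by
      apply hF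
      · rw [NonUnitalStarAlgebra.coe_bot]
        exact isClosed_singleton
      · intro v
        rw [hp v]
        exact zero_mem _
      · intro e
        rw [hs e]
        exact zero_mem _
    obtain ⟨a, ha⟩ := @exists_ne A hN.1 0
    have h1 : a ∈ (⊤ : NonUnitalStarSubalgebra ℂ A) := NonUnitalStarAlgebra.mem_top
    rw [← hbot] at h1
    exact ha (NonUnitalStarAlgebra.mem_bot.mp h1)
  obtain ⟨χ, hχ⟩ := exists_char (diag F) (diag_closed F) (diag_comm F) hD
  obtain ⟨N, hNc, hiso⟩ := isot_countable F hχ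
  obtain ⟨x, hx, hx0⟩ := hχ.ne
  refine isotropy_small hN hπ (diag F) (diag_closed F) (diag_comm F) (nset F)
    (nset_normalizer F) (nset_total F hF) hχ N
    (lt_of_le_of_lt hNc.le_aleph0 Cardinal.aleph0_lt_continuum) ?_
  intro n hn h1 h2 ε hε
  refine ⟨n, hiso n hn h1 h2, 1, (χ x)⁻¹ • x, SMulMemClass.smul_mem _ hx, ?_, ?_⟩
  · rw [hχ.smul _ _ hx, inv_mul_cancel₀ hx0]
  · rw [one_smul, sub_self, zero_mul, norm_zero]
    exact hε

end Vale.Agent.P070G
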