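import Vale.Agent.P070G.PathA

/-!
# P070G, module PATHD: orthogonality of different paths of the same length

Induction on `l`, `l'`.
-/

open scoped ComplexOrder InnerProductSpace

namespace Vale.Agent.P070G

open Vale.Agent.P070

universe u v

variable {V E : Type v} {src rng : E → V} {A : Type u} [NonUnitalCStarAlgebra A]

/-- paths of the same length which are different are orthogonal -/
theorem star_pe_orth (F : TCK V E src rng A) (l l' : List E) (hl : l.length = l'.length)
    (v w : V) (h : l ≠ l' ∨ v ≠ w) : star (pe F l v) * pe F l' w = 0 := by
  induction l generalizing l' with
  | nil =>
    cases l' with
    | nil =>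
      have hvw : v ≠ w := by
        rcases h with h | h
        · exact absurd rfl h
        · exact h
      show star (F.p v) * F.p w = 0
      rw [F.p_star, F.p_orth v w hvw]
    | cons e' t' => simp at hl
  | cons e t ih =>
    cases l' with
    | nil => simp at hl
    | cons e' t' =>
      have hl' : t.length = t'.length := by simpa using hl
      have h1 : star (pe F (e :: t) v) * pe F (e' :: t') w =
          star (pe F t v) * ((star (F.s e) * F.s e') * pe F t' w) := by
        show star (F.s e * pe F t v) * (F.s e' * pe F t' w) = _
        rw [star_mul]
        simp only [mul_assoc]
      rw [h1]
      by_cases he : e = e'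
      · subst he
        rw [F.s_star_s]
        rcases p_pe F (rng e) t' w with h2 | h2
        · rw [h2, mul_zero]
        · rw [h2]
          refine ih t' hl' ?_
          rcases h with h | h
          · left
            intro ht
            exact h (by rw [ht])
          · exact Or.inr h
      · rw [F.s_orth e e' he, zero_mul, mul_zero]

end Vale.Agent.P070G
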