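import Vale.Agent.P070G.Diag3
import Vale.Agent.P070G.PathD

/-!
# P070G, module ISOT: countable isotropy

Let `n = x y*`, `x = pe l v`, `y = pe l' v`, `χ (n* n) ≠ 0` and `χ (n* d n) = χ (n* n) χ d`.
`n ≠ 0`, so `x* x = p v = y* y` (`star_pe_pe`), `n* n = y y*`; `d = x x*`: `n* d n = y y*`, so
`χ (x x*) = 1`, and `χ (y y*) = 1` (`χ` of an idempotent `≠ 0`).  The set
`C = {x | ∃ l v, x = pe l v ∧ χ (x x*) = 1}` is countable: for each length `k` there is at most one
such `x` (`star_pe_orth`: the product of the two projections would be `0`).  `N = {x y* | x, y ∈ C}`.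
-/

open scoped ComplexOrder InnerProductSpace

namespace Vale.Agent.P070G

open Vale.Agent.P070

universe u v

variable {V E : Type v} {src rng : E → V} {A : Type u} [NonUnitalCStarAlgebra A]

private theorem ISOT_zero {D : NonUnitalStarSubalgebra ℂ A} {χ : A → ℂ} (hχ : IsChar D χ) :
    χ 0 = 0 := by
  have h := hχ.smul 0 0 (zero_mem D)
  rw [zero_smul, zero_mul] at h
  exact h

private theorem ISOT_sub (F : TCK V E src rng A) {χ : A → ℂ} (hχ : IsChar (diag F) χ) (k : ℕ) :
    {x : A | ∃ l v, l.length = k ∧ x = pe F l v ∧ χ (x * star x) = 1}.Subsingleton := by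
  rintro x ⟨l, v, hl, rfl, h1⟩ x' ⟨l', v', hl', rfl, h1'⟩
  by_cases h : l ≠ l' ∨ v ≠ v'
  · exfalso
    have h2 := star_pe_orth F l l' (hl.trans hl'.symm) v v' h
    have h3 : (pe F l v * star (pe F l v)) * (pe F l' v' * star (pe F l' v')) = 0 := by
      rw [mul_assoc, ← mul_assoc (star (pe F l v)), h2, zero_mul, mul_zero]
    have h4 := hχ.mul _ (q_mem_diag F l v) _ (q_mem_diag F l' v')
    rw [h3, ISOT_zero hχ, h1, h1', mul_one] at h4
    exact one_ne_zero h4.symm
  · push Not at h
    rw [h.1, h.2]

theorem isot_countable (F : TCK V E src rng A) {χ : A → ℂ} (hχ : IsChar (diag F) χ) :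
    ∃ N : Set A, N.Countable ∧ ∀ n ∈ nset F, χ (star n * n) ≠ 0 →
      (∀ d ∈ diag F, χ (star n * d * n) = χ (star n * n) * χ d) → n ∈ N := by
  have hC : {x : A | ∃ l v, x = pe F l v ∧ χ (x * star x) = 1}.Countable := by
    have h1 : {x : A | ∃ l v, x = pe F l v ∧ χ (x * star x) = 1} ⊆
        ⋃ k : ℕ, {x : A | ∃ l v, l.length = k ∧ x = pe F l v ∧ χ (x * star x) = 1} := by
      rintro x ⟨l, v, hx, h⟩
      exact Set.mem_iUnion.2 ⟨l.length, l, v, rfl, hx, h⟩
    exact (Set.countable_iUnion fun k => (ISOT_sub F hχ k).countable).mono h1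
  refine ⟨Set.image2 (fun x y => x * star y) _ _, hC.image2 hC _, ?_⟩
  rintro n ⟨l, l', v, rfl⟩ h0 hd
  have hp : F.p v * F.p v = F.p v := F.p_idem v
  have hx : star (pe F l v) * pe F l v = F.p v := by
    rcases star_pe_pe F l v with h | h
    · exfalso
      apply h0
      rw [h, zero_mul, star_zero, zero_mul, ISOT_zero hχ]
    · exact h
  have hy : star (pe F l' v) * pe F l' v = F.p v := by
    rcases star_pe_pe F l' v with h | h
    · exfalso
      apply h0
      rw [h, star_zero, mul_zero, star_zero, zero_mul, ISOT_zero hχ]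
    · exact h
  have hyp := pe_p F l' v
  have hxp := pe_p F l v
  have e1 : star (pe F l v * star (pe F l' v)) * (pe F l v * star (pe F l' v)) =
      pe F l' v * star (pe F l' v) := by
    rw [star_mul, star_star]
    calc pe F l' v * star (pe F l v) * (pe F l v * star (pe F l' v))
        = pe F l' v * (star (pe F l v) * pe F l v) * star (pe F l' v) := by
          simp only [mul_assoc]
      _ = pe F l' v * star (pe F l' v) := by rw [hx, hyp]
  have e2 : star (pe F l v * star (pe F l' v)) * (pe F l v * star (pe F l v)) *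
      (pe F l v * star (pe F l' v)) = pe F l' v * star (pe F l' v) := by
    rw [star_mul, star_star]
    calc pe F l' v * star (pe F l v) * (pe F l v * star (pe F l v)) * (pe F l v * star (pe F l' v))
        = pe F l' v * (star (pe F l v) * pe F l v) * (star (pe F l v) * pe F l v) *
            star (pe F l' v) := by
          simp only [mul_assoc]
      _ = pe F l' v * star (pe F l' v) := by rw [hx, hyp, hyp]
  have h1 := hd _ (q_mem_diag F l v)
  rw [e2, e1] at h1
  rw [e1] at h0
  have h2 : χ (pe F l v * star (pe F l v)) = 1 := by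
    have h3 : χ (pe F l' v * star (pe F l' v)) * χ (pe F l v * star (pe F l v)) =
        χ (pe F l' v * star (pe F l' v)) * 1 := by rw [mul_one]; exact h1.symm
    exact mul_left_cancel₀ h0 h3
  have e3 : (pe F l' v * star (pe F l' v)) * (pe F l' v * star (pe F l' v)) =
      pe F l' v * star (pe F l' v) := by
    calc (pe F l' v * star (pe F l' v)) * (pe F l' v * star (pe F l' v))
        = pe F l' v * (star (pe F l' v) * pe F l' v) * star (pe F l' v) := by
          simp only [mul_assoc]
      _ = pe F l' v * star (pe F l' v) := by rw [hy, hyp]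
  have h4 : χ (pe F l' v * star (pe F l' v)) = 1 := by
    have h5 := hχ.mul _ (q_mem_diag F l' v) _ (q_mem_diag F l' v)
    rw [e3] at h5
    have h6 : χ (pe F l' v * star (pe F l' v)) * χ (pe F l' v * star (pe F l' v)) =
        χ (pe F l' v * star (pe F l' v)) * 1 := by rw [mul_one]; exact h5.symm
    exact mul_left_cancel₀ h0 h6
  exact Set.mem_image2_of_mem ⟨l, v, rfl, h2⟩ ⟨l', v, rfl, h4⟩

end Vale.Agent.P070G
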