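import Vale.Agent.P070G.Defs

/-!
# P070G, module PATHA: elementary facts on path elements
-/

open scoped ComplexOrder InnerProductSpace

namespace Vale.Agent.P070G

open Vale.Agent.P070

universe u v

variable {V E : Type v} {src rng : E → V} {A : Type u} [NonUnitalCStarAlgebra A]

/-- `s_e p_{r(e)} = s_e`: `x = s_e p - s_e` has `x* x = 0`. -/
theorem s_rng (F : TCK V E src rng A) (e : E) : F.s e * F.p (rng e) = F.s e := by
  have h1 : star (F.s e * F.p (rng e) - F.s e) * (F.s e * F.p (rng e) - F.s e) = 0 := by
    rw [star_sub, star_mul, F.p_star]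
    have h2 : F.p (rng e) * star (F.s e) * (F.s e * F.p (rng e)) = F.p (rng e) := by
      rw [mul_assoc, ← mul_assoc (star (F.s e)), F.s_star_s, F.p_idem, F.p_idem]
    have h3 : F.p (rng e) * star (F.s e) * F.s e = F.p (rng e) := by
      rw [mul_assoc, F.s_star_s, F.p_idem]
    have h4 : star (F.s e) * (F.s e * F.p (rng e)) = F.p (rng e) := by
      rw [← mul_assoc, F.s_star_s, F.p_idem]
    rw [sub_mul, mul_sub, mul_sub, h2, h3, h4, F.s_star_s]
    simp
  exact sub_eq_zero.1 ((CStarRing.star_mul_self_eq_zero_iff _).1 h1)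

/-- induction on `l` -/
theorem pe_p (F : TCK V E src rng A) (l : List E) (v : V) : pe F l v * F.p v = pe F l v := by
  induction l with
  | nil => exact F.p_idem v
  | cons e l ih =>
    change F.s e * pe F l v * F.p v = F.s e * pe F l v
    rw [mul_assoc, ih]

/-- `p_w s_μ` is `0` or `s_μ` -/
theorem p_pe (F : TCK V E src rng A) (w : V) (l : List E) (v : V) :
    F.p w * pe F l v = 0 ∨ F.p w * pe F l v = pe F l v := by
  cases l with
  | nil =>
    change F.p w * F.p v = 0 ∨ F.p w * F.p v = F.p v
    by_cases h : w = v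
    · right
      rw [h]
      exact F.p_idem v
    · left
      exact F.p_orth w v h
  | cons e l =>
    change F.p w * (F.s e * pe F l v) = 0 ∨ F.p w * (F.s e * pe F l v) = F.s e * pe F l v
    by_cases h : w = src e
    · right
      rw [h, ← mul_assoc, F.src_s]
    · left
      rw [← F.src_s e, ← mul_assoc, ← mul_assoc, F.p_orth w (src e) h, zero_mul, zero_mul]

/-- `s_μ* s_μ` is `0` (then `s_μ = 0`) or `p_v` -/
theorem star_pe_pe (F : TCK V E src rng A) (l : List E) (v : V) :
    pe F l v = 0 ∨ star (pe F l v) * pe F l v = F.p v := by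
  induction l with
  | nil =>
    right
    change star (F.p v) * F.p v = F.p v
    rw [F.p_star, F.p_idem]
  | cons e l ih =>
    change F.s e * pe F l v = 0 ∨ star (F.s e * pe F l v) * (F.s e * pe F l v) = F.p v
    rcases ih with h | h
    · left
      rw [h, mul_zero]
    · rcases p_pe F (rng e) l v with h2 | h2
      · left
        rw [← s_rng F e, mul_assoc, h2, mul_zero]
      · right
        rw [star_mul, mul_assoc, ← mul_assoc (star (F.s e)), F.s_star_s, h2, h]

end Vale.Agent.P070G
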